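import Mathlib

set_option autoImplicit false

namespace Crest.Agent.R177.ProbAux

open Real Filter

theorem poly_exp_small (c : ℝ) (hc : 0 < c) (D : ℕ) :
    ∀ᶠ L : ℕ in atTop, ((L : ℝ) + 1) ^ D * exp (-(c * L)) < 1 := by
  have h1 : Tendsto (fun x : ℝ => x ^ D * exp (-x)) atTop (nhds 0) :=
    Real.tendsto_pow_mul_exp_neg_atTop_nhds_zero D
  have h2 : Tendsto (fun L : ℕ => c * ((L : ℝ) + 1)) atTop atTop :=
    Tendsto.const_mul_atTop hc (tendsto_atTop_add_const_right _ 1 tendsto_natCast_atTop_atTop)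
  have h3 := (h1.comp h2).mul_const (exp c / c ^ D)
  rw [zero_mul] at h3
  have h4 := h3.eventually (gt_mem_nhds (show (0 : ℝ) < 1 by norm_num))
  filter_upwards [h4] with L hL
  have hcD : 0 < c ^ D := pow_pos hc D
  have : ((L : ℝ) + 1) ^ D * exp (-(c * L)) =
      (c * ((L : ℝ) + 1)) ^ D * exp (-(c * ((L : ℝ) + 1))) * (exp c / c ^ D) := by
    rw [mul_pow, show -(c * ((L : ℝ) + 1)) = -(c * L) + -c by ring, exp_add, exp_neg c]
    have := exp_pos c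
    field_simp
  rw [this]
  exact hL

/-- the logarithmic form of the first moment bound at one level -/
theorem level_bound {Q cC N q f r u l w k B2 n : ℕ} {ε : ℝ} (hQ : 1 ≤ Q) (hN : 1 ≤ N)
    (hr : r ≤ B2) (hl : l ≤ B2) (h1 : (N : ℝ) + 1 ≤ exp ε * N)
    (h2 : exp (-ε) * ((q + 1) * N) ≤ (n : ℝ)) {s : ℝ}
    (hs : f * log Q + B2 * log (cC + 1) + u * (log N + ε) + B2 * log (q + 1) +
      w * (log (q + 1) + log N + ε) - k * (log (q + 1) + log N - ε) ≤ s) :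
    ((Q ^ f * cC ^ r * (N + 1) ^ u * (q + 1) ^ l * ((q + 1) * N + 1) ^ w : ℕ) : ℝ) ≤
      exp s * (n : ℝ) ^ k := by
  have hN' : (1 : ℝ) ≤ N := by exact_mod_cast hN
  have hQ' : (1 : ℝ) ≤ Q := by exact_mod_cast hQ
  have hq0 : (0 : ℝ) ≤ q := Nat.cast_nonneg q
  have hc0 : (0 : ℝ) ≤ cC := Nat.cast_nonneg cC
  have e1 : (Q : ℝ) ^ f = exp (f * log Q) := by
    rw [← Real.log_pow, exp_log (by positivity)]
  have e2 : (cC : ℝ) ^ r ≤ exp (B2 * log (cC + 1)) := by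
    rw [← Real.log_pow, exp_log (by positivity)]
    calc (cC : ℝ) ^ r ≤ (cC + 1) ^ r := by gcongr; linarith
      _ ≤ (cC + 1) ^ B2 := pow_le_pow_right₀ (by linarith) hr
  have e3 : ((N : ℝ) + 1) ^ u ≤ exp (u * (log N + ε)) := by
    rw [exp_nat_mul, exp_add, exp_log (by linarith)]
    gcongr
    linarith
  have e4 : ((q : ℝ) + 1) ^ l ≤ exp (B2 * log (q + 1)) := by
    rw [← Real.log_pow, exp_log (by positivity)]
    exact pow_le_pow_right₀ (by linarith) hl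
  have e5 : (((q : ℝ) + 1) * N + 1) ^ w ≤ exp (w * (log (q + 1) + log N + ε)) := by
    rw [exp_nat_mul, exp_add, exp_add, exp_log (by linarith), exp_log (by linarith)]
    gcongr
    nlinarith
  have e6 : exp (k * (log (q + 1) + log N - ε)) ≤ (n : ℝ) ^ k := by
    rw [exp_nat_mul, sub_eq_add_neg, exp_add, exp_add, exp_log (by linarith),
      exp_log (by linarith)]
    gcongr
    linarith
  push_cast
  calc (Q : ℝ) ^ f * (cC : ℝ) ^ r * ((N : ℝ) + 1) ^ u * ((q : ℝ) + 1) ^ l *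
        (((q : ℝ) + 1) * N + 1) ^ w
      ≤ exp (f * log Q) * exp (B2 * log (cC + 1)) * exp (u * (log N + ε)) *
        exp (B2 * log (q + 1)) * exp (w * (log (q + 1) + log N + ε)) := by
        rw [e1]; gcongr
    _ = exp (f * log Q + B2 * log (cC + 1) + u * (log N + ε) + B2 * log (q + 1) +
          w * (log (q + 1) + log N + ε) - k * (log (q + 1) + log N - ε)) *
          exp (k * (log (q + 1) + log N - ε)) := by
        simp only [← exp_add]; congr 1; ring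
    _ ≤ exp s * (n : ℝ) ^ k := by gcongr

/-- summing the logarithmic bounds over the levels -/
theorem exists_level {μ : ℕ} (hμ : 0 < μ) (f u w k : ℕ → ℕ) {Λ unp a K B C0 Cm L0 B2 : ℕ}
    {lQ lq lC lN lD γ : ℝ} (hlQ : 0 ≤ lQ) (hlq : 0 ≤ lq) (hγ : γ = lq / 2 - lQ / 4) (hγ0 : 0 < γ)
    (hlN0 : 0 ≤ lN) (hlN : lN ≤ 8 * C0 * L0 * lD) (hC0 : 4 * lQ ≤ γ * C0)
    (hCm : 64 * C0 * lD ≤ γ * Cm) (hCm0 : 0 < Cm) (hL00 : 0 < L0) (hC00 : 0 < C0)
    (hcst : lQ * (3 * K / 2 + B / 2) + μ * (B2 * (lC + lq)) + lq * K ≤ γ * L0 / 8)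
    (hΛ : L0 ≤ Λ) (hunp : C0 * unp ≤ Λ) (ha : a * (Cm * L0) ≤ Λ)
    (hk : ∑ j ∈ Finset.Icc 1 μ, k j = Λ) (hv : ∑ j ∈ Finset.Icc 1 μ, (u j + w j) ≤ Λ + a)
    (hw : 2 * ∑ j ∈ Finset.Icc 1 μ, w j ≤ Λ + 2 * K)
    (hf : 4 * ∑ j ∈ Finset.Icc 1 μ, f j ≤ Λ + 2 * unp + 6 * K + 2 * B) :
    ∃ j ∈ Finset.Icc 1 μ, f j * lQ + B2 * lC + u j * (lN + γ / 24) + B2 * lq +
      w j * (lq + lN + γ / 24) - k j * (lq + lN - γ / 24) ≤ -(γ / (2 * μ) * L0) := by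
  by_contra hcon
  push Not at hcon
  have hne : (Finset.Icc 1 μ).Nonempty := ⟨1, by simp; omega⟩
  have hsum := Finset.sum_lt_sum_of_nonempty hne hcon
  have hcard : (Finset.Icc 1 μ).card = μ := by simp
  simp only [Finset.sum_sub_distrib, Finset.sum_add_distrib, Finset.sum_const, hcard,
    nsmul_eq_mul, ← Finset.sum_mul] at hsum
  have hμ' : (0 : ℝ) < μ := by exact_mod_cast hμ
  have e0 : (μ : ℝ) * -(γ / (2 * μ) * L0) = -(γ * L0 / 2) := by field_simp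
  rw [e0] at hsum
  set F : ℝ := ∑ j ∈ Finset.Icc 1 μ, (f j : ℝ) with hF
  set Uu : ℝ := ∑ j ∈ Finset.Icc 1 μ, (u j : ℝ) with hU
  set Ww : ℝ := ∑ j ∈ Finset.Icc 1 μ, (w j : ℝ) with hW
  have hk' : ∑ j ∈ Finset.Icc 1 μ, (k j : ℝ) = Λ := by exact_mod_cast hk
  have hv' : Uu + Ww ≤ Λ + a := by
    rw [hU, hW, ← Finset.sum_add_distrib]; exact_mod_cast hv
  have hw' : 2 * Ww ≤ Λ + 2 * K := by rw [hW]; exact_mod_cast hw
  have hf' : 4 * F ≤ Λ + 2 * unp + 6 * K + 2 * B := by rw [hF]; exact_mod_cast hf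
  rw [hk'] at hsum
  have hΛ' : (L0 : ℝ) ≤ Λ := by exact_mod_cast hΛ
  have hunp' : (C0 : ℝ) * unp ≤ Λ := by exact_mod_cast hunp
  have ha' : (a : ℝ) * (Cm * L0) ≤ Λ := by exact_mod_cast ha
  have hCm1 : (1 : ℝ) ≤ Cm := by exact_mod_cast hCm0
  have hL1 : (1 : ℝ) ≤ L0 := by exact_mod_cast hL00
  have hC1 : (1 : ℝ) ≤ C0 := by exact_mod_cast hC00
  have ha0 : (0 : ℝ) ≤ a := Nat.cast_nonneg a
  have hu0 : (0 : ℝ) ≤ unp := Nat.cast_nonneg unp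
  have haΛ : (a : ℝ) ≤ Λ := by
    have : (1 : ℝ) ≤ Cm * L0 := by nlinarith
    nlinarith
  -- the arcs
  have t1 : (a : ℝ) * lN ≤ γ * Λ / 8 := by
    have h1 : (a : ℝ) * lN ≤ a * (8 * C0 * L0 * lD) := mul_le_mul_of_nonneg_left hlN ha0
    have h2 : (a : ℝ) * L0 * (64 * C0 * lD) ≤ a * L0 * (γ * Cm) :=
      mul_le_mul_of_nonneg_left hCm (by positivity)
    have h3 : γ * (a * (Cm * L0)) ≤ γ * Λ := mul_le_mul_of_nonneg_left ha' hγ0.le
    nlinarith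
  -- the unpaired darts
  have t2 : lQ * unp / 2 ≤ γ * Λ / 8 := by
    have h1 : 4 * lQ * unp ≤ γ * C0 * unp := mul_le_mul_of_nonneg_right hC0 hu0
    have h2 : γ * (C0 * unp) ≤ γ * Λ := mul_le_mul_of_nonneg_left hunp' hγ0.le
    nlinarith
  have t3 : F * lQ ≤ (Λ / 4 + unp / 2 + 3 * K / 2 + B / 2) * lQ :=
    mul_le_mul_of_nonneg_right (by linarith) hlQ
  have t4 : (Uu + Ww) * lN ≤ (Λ + a) * lN := mul_le_mul_of_nonneg_right hv' hlN0
  have t5 : Ww * lq ≤ (Λ / 2 + K) * lq := mul_le_mul_of_nonneg_right (by linarith) hlq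
  have t6 : (Uu + Ww) * γ ≤ (2 * Λ) * γ := mul_le_mul_of_nonneg_right (by linarith) hγ0.le
  have t7 : γ * L0 ≤ γ * Λ := mul_le_mul_of_nonneg_left hΛ' hγ0.le
  have t8 : γ * Λ = lq * Λ / 2 - lQ * Λ / 4 := by rw [hγ]; ring
  nlinarith

end Crest.Agent.R177.ProbAux
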